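import Vale.Agent.P084.Main

namespace Vale.Agent.Results.P084.FinDim

/-- Every finite-dimensional real normed space has the Mazur-Ulam property. -/
theorem result {X Y : Type*} [NormedAddCommGroup X] [NormedSpace ℝ X] [FiniteDimensional ℝ X]
    [NormedAddCommGroup Y] [NormedSpace ℝ Y]
    (f : Metric.sphere (0 : X) 1 → Metric.sphere (0 : Y) 1)
    (hf : ∀ x y : Metric.sphere (0 : X) 1, ‖(f x : Y) - (f y : Y)‖ = ‖(x : X) - (y : X)‖)
    (hs : Function.Surjective f) :
    ∃ T : X ≃ₗᵢ[ℝ] Y, ∀ x : Metric.sphere (0 : X) 1, T (x : X) = (f x : Y) :=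
  Vale.Agent.P084.tingley (Isometry.of_dist_eq fun x y => by
    rw [Subtype.dist_eq, Subtype.dist_eq, dist_eq_norm, dist_eq_norm, hf]) hs

end Vale.Agent.Results.P084.FinDim
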